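import Vale.Agent.P141.R2.H152.Alg

/-!
# The algebra generated by the structured functions: generators, multiples, conjugates
-/

namespace Vale.Agent.P141.R2.H152

open MeasureTheory Set

/-- a structured function belongs to the algebra, mass one -/
theorem Alg.of_one {H : ℝ} {G₁ G₂ G₃ : ℝ × ℝ × ℝ → ℂ} (g₁ : One G₁) (g₂ : One G₂)
    (g₃ : One G₃) : Alg H 1 (dualFn H G₁ G₂ G₃) := by
  refine ⟨Unit, inferInstance, Measure.dirac (), ![fun p => G₁ p.2, fun p => G₂ p.2,
    fun p => G₃ p.2], ?_, ?_, ?_, ?_⟩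
  · simp
  · intro i
    fin_cases i
    · exact g₁.meas.comp measurable_snd
    · exact g₂.meas.comp measurable_snd
    · exact g₃.meas.comp measurable_snd
  · intro i p
    fin_cases i
    · exact g₁.le _
    · exact g₂.le _
    · exact g₃.le _
  · intro x
    rw [integral_dirac]
    rfl

theorem tri_smul {Ω : Type} (G : Fin 3 → Ω × ℝ × ℝ × ℝ → ℂ) (a : ℂ) (ω : Ω) (x : ℝ)
    (h : ℝ × ℝ × ℝ) :
    tri (fun i p => (if i = 0 then a else 1) * G i p) ω x h = a * tri G ω x h := by
  unfold tri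
  simp only [Fin.isValue, if_true, one_ne_zero, if_false, one_mul]
  have h2 : ¬ (2 : Fin 3) = 0 := by decide
  rw [if_neg h2]
  ring

/-- multiples -/
theorem Alg.smul {H M : ℝ} {D : ℝ → ℂ} (c : ℂ) (h : Alg H M D) :
    Alg H (‖c‖ * M) (fun x => c * D x) := by
  obtain ⟨Ω, mΩ, μ, G, hμ, hm, hb, hD⟩ := h
  by_cases hc : c = 0
  · refine ⟨Ω, mΩ, 0, G, by simp, hm, hb, fun x => ?_⟩
    rw [integral_zero_measure, hc]
    exact zero_mul _
  · have hn : (‖c‖ : ℂ) ≠ 0 := by
      exact_mod_cast norm_ne_zero_iff.2 hc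
    refine ⟨Ω, mΩ, ENNReal.ofReal ‖c‖ • μ,
      fun i p => (if i = 0 then c / (‖c‖ : ℂ) else 1) * G i p, ?_, ?_, ?_, ?_⟩
    · rw [Measure.smul_apply, smul_eq_mul, ENNReal.ofReal_mul (norm_nonneg _)]
      gcongr
    · exact fun i => (hm i).const_mul _
    · intro i p
      rw [norm_mul]
      have h1 : ‖(if i = 0 then c / (‖c‖ : ℂ) else 1)‖ = 1 := by
        split_ifs
        · rw [norm_div, Complex.norm_real, norm_norm, div_self (norm_ne_zero_iff.2 hc)]
        · exact norm_one
      rw [h1, one_mul]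
      exact hb i p
    · intro x
      rw [integral_smul_measure, ENNReal.toReal_ofReal (norm_nonneg _)]
      simp only [tri_smul]
      have h2 : ∀ ω, ((H ^ 3 : ℝ) : ℂ)⁻¹ * ∫ h in cube H, c / (‖c‖ : ℂ) * tri G ω x h =
          c / (‖c‖ : ℂ) * (((H ^ 3 : ℝ) : ℂ)⁻¹ * ∫ h in cube H, tri G ω x h) := by
        intro ω
        rw [integral_const_mul]
        ring
      simp only [h2]
      rw [integral_const_mul, ← hD x, Complex.real_smul]
      field_simp

/-- conjugates -/
theorem Alg.conj {H M : ℝ} {D : ℝ → ℂ} (h : Alg H M D) :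
    Alg H M (fun x => (starRingEnd ℂ) (D x)) := by
  obtain ⟨Ω, mΩ, μ, G, hμ, hm, hb, hD⟩ := h
  refine ⟨Ω, mΩ, μ, fun i p => (starRingEnd ℂ) (G i p), hμ, fun i => ?_, fun i p => ?_,
    fun x => ?_⟩
  · exact Complex.continuous_conj.measurable.comp (hm i)
  · rw [Complex.norm_conj]
    exact hb i p
  · show (starRingEnd ℂ) (D x) = _
    rw [hD x, ← integral_conj]
    refine integral_congr_ae (Filter.Eventually.of_forall fun ω => ?_)
    simp only [map_mul, map_inv₀, Complex.conj_ofReal]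
    rw [← integral_conj]
    congr 1
    refine integral_congr_ae (Filter.Eventually.of_forall fun h => ?_)
    simp only [tri, map_mul]

end Vale.Agent.P141.R2.H152
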